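import Vale.Agent.P246.R2.H429.Defs

/-!
# P246, stable range theorem, ROW F: the Fox complex of a presentation is exact in degree one
-/

namespace Vale.Agent.P246.H925

open Vale.Agent.P246

variable {G : Type} [Group G] {m : ℕ} (x : Fin m → G)

/-- the Fox derivative of an element of the free group -/
noncomputable def fd (w : FreeGroup (Fin m)) : Fin m → ZG G := foxWord x w.toWord

theorem wordVal_eq (v : List (Fin m × Bool)) :
    wordVal x v = FreeGroup.lift x (FreeGroup.mk v) := by
  induction v with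
  | nil =>
    have : (FreeGroup.mk [] : FreeGroup (Fin m)) = 1 := rfl
    rw [this, map_one, wordVal]
  | cons a v ih =>
    obtain ⟨i, b⟩ := a
    have h : (FreeGroup.mk ((i, b) :: v) : FreeGroup (Fin m))
        = FreeGroup.mk [(i, b)] * FreeGroup.mk v := rfl
    rw [h, map_mul, ← ih]
    cases b
    · have : (FreeGroup.mk [(i, false)] : FreeGroup (Fin m)) = (FreeGroup.of i)⁻¹ := rfl
      rw [this, map_inv, FreeGroup.lift_apply_of, wordVal]
    · have : (FreeGroup.mk [(i, true)] : FreeGroup (Fin m)) = FreeGroup.of i := rfl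
      rw [this, FreeGroup.lift_apply_of, wordVal]

theorem fd_one : fd x 1 = 0 := by
  rw [fd, FreeGroup.toWord_one, foxWord_nil]

theorem fd_mul (v w : FreeGroup (Fin m)) :
    fd x (v * w) = fd x v + elt (FreeGroup.lift x v) • fd x w := by
  have h1 : v * w = FreeGroup.mk (v.toWord ++ w.toWord) := by
    rw [← FreeGroup.mul_mk, FreeGroup.mk_toWord, FreeGroup.mk_toWord]
  rw [fd, h1, foxWord_toWord_mk, foxWord_append, wordVal_eq, FreeGroup.mk_toWord]
  rfl

theorem fd_of (i : Fin m) : fd x (FreeGroup.of i) = Pi.single i 1 := by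
  have h1 : (FreeGroup.of i : FreeGroup (Fin m)) = FreeGroup.mk [(i, true)] := rfl
  rw [fd, h1, foxWord_toWord_mk, foxWord_true, foxWord_nil, smul_zero, add_zero]

/-- Fox derivatives of the elements of the kernel, modulo an arbitrary submodule -/
def nsub (W : Submodule (ZG G) (Fin m → ZG G)) : Subgroup (FreeGroup (Fin m)) where
  carrier := {w | FreeGroup.lift x w = 1 ∧ fd x w ∈ W}
  one_mem' := ⟨map_one _, by rw [fd_one]; exact W.zero_mem⟩
  mul_mem' := by
    rintro v w ⟨h1, h2⟩ ⟨h3, h4⟩
    refine ⟨by rw [map_mul, h1, h3, one_mul], ?_⟩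
    rw [fd_mul, h1]
    exact W.add_mem h2 (W.smul_mem _ h4)
  inv_mem' := by
    rintro v ⟨h1, h2⟩
    refine ⟨by rw [map_inv, h1, inv_one], ?_⟩
    have h3 := fd_mul x v⁻¹ v
    rw [inv_mul_cancel, fd_one, map_inv, h1, inv_one, elt_one, one_smul] at h3
    have h4 : fd x v⁻¹ = - fd x v := by
      rw [eq_neg_iff_add_eq_zero]; exact h3.symm
    rw [h4]
    exact W.neg_mem h2

theorem nsub_normal (W : Submodule (ZG G) (Fin m → ZG G)) : (nsub x W).Normal := by
  constructor
  rintro v ⟨h1, h2⟩ g
  refine ⟨by rw [map_mul, map_mul, h1, mul_one, map_inv, mul_inv_cancel], ?_⟩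
  have h3 := fd_mul x g g⁻¹
  rw [mul_inv_cancel, fd_one] at h3
  rw [fd_mul, fd_mul, map_mul, h1, mul_one, add_right_comm, ← h3, zero_add]
  exact W.smul_mem _ h2

theorem fox_ker (P : FinPresentation G) (w : FreeGroup (Fin P.gens))
    (hw : FreeGroup.lift P.x w = 1) : fd P.x w ∈ LinearMap.range (foxD2 P) := by
  have h1 : (FreeGroup.lift P.x).ker ≤ nsub P.x (LinearMap.range (foxD2 P)) := by
    rw [P.ker_eq]
    have := nsub_normal P.x (LinearMap.range (foxD2 P))
    apply Subgroup.normalClosure_le_normal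
    rintro _ ⟨j, rfl⟩
    refine ⟨?_, Pi.single j 1, ?_⟩
    · have : P.r j ∈ (FreeGroup.lift P.x).ker := by
        rw [P.ker_eq]
        exact Subgroup.subset_normalClosure ⟨j, rfl⟩
      exact MonoidHom.mem_ker.1 this
    · rw [foxD2, Fintype.linearCombination_apply_single, one_smul]
      rfl
  exact (h1 (MonoidHom.mem_ker.2 hw)).2

theorem fox_eq (P : FinPresentation G) (v w : FreeGroup (Fin P.gens))
    (h : FreeGroup.lift P.x v = FreeGroup.lift P.x w) :
    (LinearMap.range (foxD2 P)).mkQ (fd P.x v) = (LinearMap.range (foxD2 P)).mkQ (fd P.x w) := by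
  have h1 : FreeGroup.lift P.x (v * w⁻¹) = 1 := by
    rw [map_mul, map_inv, h, mul_inv_cancel]
  have h2 := fox_ker P _ h1
  have h3 : fd P.x v = fd P.x (v * w⁻¹) + fd P.x w := by
    have := fd_mul P.x (v * w⁻¹) w
    rw [inv_mul_cancel_right, h1, elt_one, one_smul] at this
    exact this
  rw [h3, map_add]
  have h4 : (LinearMap.range (foxD2 P)).mkQ (fd P.x (v * w⁻¹)) = 0 := by
    rw [Submodule.mkQ_apply, Submodule.Quotient.mk_eq_zero]
    exact h2
  rw [h4, zero_add]

/-- **ROW F**: the Fox complex of a presentation is exact in degree one. -/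
theorem fox_exact : H429.SpecFox := by
  intro G _ P y hy
  classical
  choose s hs using P.surj
  let q := (LinearMap.range (foxD2 P)).mkQ
  let D : ZG G →+ ((Fin P.gens → ZG G) ⧸ LinearMap.range (foxD2 P)) :=
    (Finsupp.liftAddHom fun g => zmultiplesHom _ (q (fd P.x (s g)))).comp
      (MonoidAlgebra.coeffAddEquiv).toAddMonoidHom
  have hD : ∀ (g : G) (n : ℤ), D (MonoidAlgebra.single g n) = n • q (fd P.x (s g)) := by
    intro g n
    change (Finsupp.liftAddHom fun g => zmultiplesHom _ (q (fd P.x (s g)))) (Finsupp.single g n) = _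
    rw [Finsupp.liftAddHom_apply_single]
    rfl
  have hE : ∀ (i : Fin P.gens) (u : ZG G), D (u * (elt (P.x i) - 1)) = u • q (Pi.single i 1) := by
    intro i u
    let A1 : ZG G →+ ((Fin P.gens → ZG G) ⧸ LinearMap.range (foxD2 P)) :=
      D.comp (AddMonoidHom.mulRight (elt (P.x i) - 1))
    let A2 : ZG G →+ ((Fin P.gens → ZG G) ⧸ LinearMap.range (foxD2 P)) :=
      (AddMonoidHom.flip (smulAddHom (ZG G) _)) (q (Pi.single i 1))
    have hA : A1 = A2 := by
      apply MonoidAlgebra.addMonoidHom_ext
      intro g n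
      change D (MonoidAlgebra.single g n * (elt (P.x i) - 1)) =
        (MonoidAlgebra.single g n : ZG G) • q (Pi.single i 1)
      have h1 : (MonoidAlgebra.single g n : ZG G) = n • elt g := by
        rw [elt, MonoidAlgebra.smul_single, smul_eq_mul, mul_one]
      have h2 : (MonoidAlgebra.single g n : ZG G) * (elt (P.x i) - 1)
          = MonoidAlgebra.single (g * P.x i) n - MonoidAlgebra.single g n := by
        rw [mul_sub, mul_one, elt, MonoidAlgebra.single_mul_single, mul_one]
      have h3 : q (fd P.x (s (g * P.x i))) = q (fd P.x (s g)) + elt g • q (Pi.single i 1) := by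
        have h4 := fox_eq P (s (g * P.x i)) (s g * FreeGroup.of i) (by
          rw [hs, map_mul, hs, FreeGroup.lift_apply_of])
        change q _ = q _ at h4
        rw [h4, fd_mul, fd_of, hs, map_add, map_smul]
      rw [h2, map_sub, hD, hD, h3, smul_add, add_sub_cancel_left, h1, smul_assoc]
    exact DFunLike.congr_fun hA u
  have h0 : q y = D (foxD1 P y) := by
    rw [foxD1, Fintype.linearCombination_apply, map_sum]
    have h5 : ∀ i, D (y i • (elt (P.x i) - 1)) = y i • q (Pi.single i 1) := fun i => by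
      rw [smul_eq_mul, hE]
    rw [Finset.sum_congr rfl fun i _ => h5 i]
    have h6 : ∀ i, y i • q (Pi.single i 1) = q (Pi.single i (y i)) := fun i => by
      rw [← map_smul]
      congr 1
      rw [← Pi.single_smul, smul_eq_mul, mul_one]
    rw [Finset.sum_congr rfl fun i _ => h6 i, ← map_sum, Finset.univ_sum_single]
  rw [hy, map_zero] at h0
  have h7 : y ∈ LinearMap.range (foxD2 P) := by
    rw [← Submodule.Quotient.mk_eq_zero, ← Submodule.mkQ_apply]
    exact h0
  obtain ⟨t, ht⟩ := h7
  exact ⟨t, ht⟩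

end Vale.Agent.P246.H925
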